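import Vale.Agent.P072.Main

namespace Vale.Agent.Results.P072.Permanence

open Vale.Agent.P072

/-- `x` solves the mass-action equation on the time set `I`. -/
def SolvesOn {d : ℕ} (R : Finset (Reaction d)) (k : Reaction d → ℝ) (x : ℝ → Fin d → ℝ)
    (I : Set ℝ) : Prop :=
  ∀ t ∈ I, HasDerivWithinAt x (field R k (x t)) I t

/-- Permanence on `P`. -/
def Permanent {d : ℕ} (R : Finset (Reaction d)) (k : Reaction d → ℝ) (P : Set (Fin d → ℝ)) :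
    Prop :=
  ∃ K : Set (Fin d → ℝ), IsCompact K ∧ K ⊆ P ∧ ∀ x0 ∈ P,
    (∃ x : ℝ → Fin d → ℝ, x 0 = x0 ∧ SolvesOn R k x (Set.Ici 0)) ∧
    (∃ Q : Set (Fin d → ℝ), IsCompact Q ∧ Q ⊆ P ∧ ∀ (T : ℝ) (x : ℝ → Fin d → ℝ), x 0 = x0 →
      SolvesOn R k x (Set.Icc 0 T) → ∀ t ∈ Set.Icc 0 T, x t ∈ Q) ∧
    (∀ x : ℝ → Fin d → ℝ, x 0 = x0 → SolvesOn R k x (Set.Ici 0) →
      (∀ t, 0 ≤ t → x t ∈ P) ∧ ∃ T : ℝ, ∀ t, T ≤ t → x t ∈ K)

theorem result (d : ℕ) (C : Finset (Fin d → ℕ)) (R : Finset (Reaction d))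
    (_hC : ∀ r ∈ R, r.1 ∈ C ∧ r.2 ∈ C ∧ r.1 ≠ r.2) (hR : WeaklyReversible R)
    (k : Reaction d → ℝ) (hk : ∀ r ∈ R, 0 < k r) (c : Fin d → ℝ) (hc : ∀ i, 0 < c i) :
    Permanent R k (posClass R c) := by
  obtain ⟨ε, hε, hadm⟩ := exists_adm R k hk
  obtain ⟨K, hK, hKP, habs⟩ := absorbing R hR hε c hc
  have hcurve : ∀ (T : ℝ) (x : ℝ → Fin d → ℝ), SolvesOn R k x (Set.Icc 0 T) →
      Curve (Vel R ε) x 0 T := fun T x hx =>
    curve_of_deriv (g := fun t => field R k (x t)) hx fun s _ => ⟨k, hadm, rfl⟩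
  have hres : ∀ (T : ℝ) (x : ℝ → Fin d → ℝ), SolvesOn R k x (Set.Ici 0) →
      SolvesOn R k x (Set.Icc 0 T) := fun T x hx t ht =>
    (hx t ht.1).mono Set.Icc_subset_Ici_self
  refine ⟨K, hK, hKP, fun x0 hx0 => ?_⟩
  obtain ⟨lo, hi, hlo, hst⟩ := stays R hR hε c x0 hx0
  refine ⟨exists_solution_deriv R hR k hk x0 hx0.2,
    ⟨boxClass R c lo hi, isCompact_boxClass R c lo hi, boxClass_subset R c hlo hi,
      fun T x h0 hx => hst x T h0 (hcurve T x hx)⟩, fun x h0 hx => ⟨fun t ht => ?_, ?_⟩⟩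
  · exact boxClass_subset R c hlo hi (hst x t h0 (hcurve t x (hres t x hx)) t ⟨ht, le_rfl⟩)
  · exact habs x (h0 ▸ hx0) fun T _ => hcurve T x (hres T x hx)

end Vale.Agent.Results.P072.Permanence
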