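import Vale.Agent.P072.Main

namespace Vale.Agent.Results.P072.Variable

open Vale.Agent.P072

/-- `x` is a (Caratheodory) solution, on the time set `I`, of the mass-action equation with
time-dependent rates `k`. -/
def SolvesOn {d : ℕ} (R : Finset (Reaction d)) (k : ℝ → Reaction d → ℝ) (x : ℝ → Fin d → ℝ)
    (I : Set ℝ) : Prop :=
  ContinuousOn x I ∧ ∀ t ∈ I, x t = x 0 + ∫ s in (0 : ℝ)..t, field R (k s) (x s)

theorem result (d : ℕ) (C : Finset (Fin d → ℕ)) (R : Finset (Reaction d))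
    (_hC : ∀ r ∈ R, r.1 ∈ C ∧ r.2 ∈ C ∧ r.1 ≠ r.2) (hR : WeaklyReversible R)
    (ε : ℝ) (hε : 0 < ε) (c : Fin d → ℝ) (hc : ∀ i, 0 < c i) :
    ∃ K : Set (Fin d → ℝ), IsCompact K ∧ K ⊆ posClass R c ∧
      ∀ k : ℝ → Reaction d → ℝ, (∀ r, Measurable fun s => k s r) →
        (∀ s, ∀ r ∈ R, ε ≤ k s r ∧ k s r ≤ ε⁻¹) → ∀ x0 ∈ posClass R c,
        (∃ x : ℝ → Fin d → ℝ, x 0 = x0 ∧ SolvesOn R k x (Set.Ici 0)) ∧
        (∃ Q : Set (Fin d → ℝ), IsCompact Q ∧ Q ⊆ posClass R c ∧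
          ∀ (T : ℝ) (x : ℝ → Fin d → ℝ), x 0 = x0 → SolvesOn R k x (Set.Icc 0 T) →
            ∀ t ∈ Set.Icc 0 T, x t ∈ Q) ∧
        (∀ x : ℝ → Fin d → ℝ, x 0 = x0 → SolvesOn R k x (Set.Ici 0) →
          (∀ t, 0 ≤ t → x t ∈ posClass R c) ∧ ∃ T : ℝ, ∀ t, T ≤ t → x t ∈ K) := by
  obtain ⟨K, hK, hKP, habs⟩ := absorbing R hR hε c hc
  refine ⟨K, hK, hKP, fun k hkm hk x0 hx0 => ?_⟩
  have hcurve : ∀ (T : ℝ) (x : ℝ → Fin d → ℝ), SolvesOn R k x (Set.Icc 0 T) →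
      Curve (Vel R ε) x 0 T := fun T x hx =>
    curve_of_integral (g := fun t => field R (k t) (x t)) hx.1
      (integrable_field R hε hkm hk hx.1) hx.2 fun s _ => ⟨k s, hk s, rfl⟩
  have hres : ∀ (T : ℝ) (x : ℝ → Fin d → ℝ), SolvesOn R k x (Set.Ici 0) →
      SolvesOn R k x (Set.Icc 0 T) := fun T x hx =>
    ⟨hx.1.mono Set.Icc_subset_Ici_self, fun t ht => hx.2 t ht.1⟩
  obtain ⟨lo, hi, hlo, hst⟩ := stays R hR hε c x0 hx0
  refine ⟨?_, ⟨boxClass R c lo hi, isCompact_boxClass R c lo hi, boxClass_subset R c hlo hi,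
      fun T x h0 hx => hst x T h0 (hcurve T x hx)⟩, fun x h0 hx => ⟨fun t ht => ?_, ?_⟩⟩
  · obtain ⟨x, h1, h2, h3⟩ := exists_solution R hR hε hkm hk x0 hx0.2
    exact ⟨x, h2, h1.continuousOn, h3⟩
  · exact boxClass_subset R c hlo hi (hst x t h0 (hcurve t x (hres t x hx)) t ⟨ht, le_rfl⟩)
  · exact habs x (h0 ▸ hx0) fun T _ => hcurve T x (hres T x hx)

end Vale.Agent.Results.P072.Variable
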